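import Vale.Agent.P007.Conclusion
import Vale.Agent.P007.Maximal
import Vale.Agent.P007.Subfield
import Vale.Agent.P007.Necessary

open MeasureTheory Filter Topology

namespace Vale.Agent.Results.P007.A00_Combined

open Vale.Agent.P007

theorem result :
    (∀ n : ℕ, 4 ≤ n → ¬ n.Prime →
      ∃ d : ℕ → Datum n,
        (∀ i, ∀ x : (d i).K, x ∈ (d i).O ↔ IsIntegral ℤ x) ∧
        Tendsto (fun i => (d i).absDisc) atTop atTop ∧
        ∀ m : Measure (X n), IsInvariantProbability m →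
          (∀ φ : ℕ → ℕ, ¬ WeaklyConverges (fun i => (d (φ i)).packetMeasure) m) ∧
          (∀ (φ : ℕ → ℕ) (mu : ℕ → Measure (X n)),
            (∀ i, ∀ᵐ x ∂(mu i), ∃ S ∈ (d (φ i)).packet, x ∈ S) → ¬ WeaklyConverges mu m) ∧
          ∃ f : X n → ℝ, Continuous f ∧ HasCompactSupport f ∧ 0 < ∫ x, f x ∂m ∧
            (∀ i, ∫ x, f x ∂(d i).packetMeasure = 0) ∧
            ∀ i, ∀ S ∈ (d i).packet, ∀ x ∈ S, f x = 0) ∧
    (∀ (n : ℕ) (d : Datum n) (a : d.K), (∀ r : ℚ, a ≠ r) → ∀ i j : Fin n, i ≠ j →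
      d.sigma i a = d.sigma j a →
      ∃ (O : ℕ → Subring d.K) (hi : ∀ k, ∀ x ∈ O k, IsIntegral ℤ x)
        (hf : ∀ k, Submodule.span ℚ (O k : Set d.K) = ⊤),
        Tendsto (fun k => (d.withOrder (O k) (hi k) (hf k)).absDisc) atTop atTop ∧
        ∀ m : Measure (X n), IsInvariantProbability m →
          (∀ φ : ℕ → ℕ, ¬ WeaklyConverges
            (fun k => (d.withOrder (O (φ k)) (hi (φ k)) (hf (φ k))).packetMeasure) m) ∧
          ∃ f : X n → ℝ, Continuous f ∧ HasCompactSupport f ∧ 0 < ∫ x, f x ∂m ∧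
            ∀ k, ∀ S ∈ (d.withOrder (O k) (hi k) (hf k)).packet, ∀ x ∈ S, f x = 0) ∧
    (∀ (n : ℕ) (d : ℕ → Datum n) (m : Measure (X n)), IsInvariantProbability m →
      WeaklyConverges (fun i => (d i).packetMeasure) m → ∀ C : ℝ,
      ∀ᶠ i in atTop, ∀ a ∈ (d i).O, (∀ k : ℤ, a ≠ k) → ∃ j, C < |(d i).sigma j a|) := by
  refine ⟨?_, ?_, ?_⟩
  · intro n hn hc
    obtain ⟨a, b, ha, hb, rfl⟩ := (Nat.not_prime_iff_exists_mul_eq (by omega)).1 hc
    have ha2 : 2 ≤ a := by
      rcases Nat.lt_or_ge a 2 with h | h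
      · interval_cases a <;> omega
      · exact h
    have hb2 : 2 ≤ b := by
      rcases Nat.lt_or_ge b 2 with h | h
      · interval_cases b <;> omega
      · exact h
    obtain ⟨d, hmax, hdisc, C, hsmall⟩ := exists_maximal_seq a b ha2 hb2
    exact ⟨d, hmax, hdisc, fun m hm => counterexample_conclusion d C hsmall m hm⟩
  · intro n d a ha i j hij h
    obtain ⟨O, hi, hf, hdisc, C, hsmall⟩ := exists_orders_of_datum d a ha i j hij h
    refine ⟨O, hi, hf, hdisc, fun m hm => ?_⟩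
    obtain ⟨h1, -, f, hfc, hfs, hfpos, -, hf0⟩ :=
      counterexample_conclusion (fun k => d.withOrder (O k) (hi k) (hf k)) C hsmall m hm
    exact ⟨h1, f, hfc, hfs, hfpos, hf0⟩
  · intro n d m hm hconv C
    by_contra hcon
    rw [not_eventually] at hcon
    refine not_weaklyConverges d C (hcon.mono fun i hi => ?_) hm hconv
    push Not at hi
    exact hi

end Vale.Agent.Results.P007.A00_Combined
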