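import Vale.Agent.P007.Conclusion
import Vale.Agent.P007.Composite

open MeasureTheory Filter Topology

namespace Vale.Agent.Results.P007.A1_FixedFieldOrders

open Vale.Agent.P007

theorem result (n : ℕ) (hn : 4 ≤ n) (hc : ¬ n.Prime) :
    ∃ (d : Datum n) (O : ℕ → Subring d.K) (hi : ∀ i, ∀ x ∈ O i, IsIntegral ℤ x)
      (hf : ∀ i, Submodule.span ℚ (O i : Set d.K) = ⊤),
      Tendsto (fun i => (d.withOrder (O i) (hi i) (hf i)).absDisc) atTop atTop ∧
      ∀ m : Measure (X n), IsInvariantProbability m →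
        (∀ φ : ℕ → ℕ, ¬ WeaklyConverges
          (fun i => (d.withOrder (O (φ i)) (hi (φ i)) (hf (φ i))).packetMeasure) m) ∧
        ∃ f : X n → ℝ, Continuous f ∧ HasCompactSupport f ∧ 0 < ∫ x, f x ∂m ∧
          ∀ i, ∀ S ∈ (d.withOrder (O i) (hi i) (hf i)).packet, ∀ x ∈ S, f x = 0 := by
  obtain ⟨a, b, ha, hb, rfl⟩ := (Nat.not_prime_iff_exists_mul_eq (by omega)).1 hc
  have ha2 : 2 ≤ a := by
    rcases Nat.lt_or_ge a 2 with h | h
    · interval_cases a <;> omega
    · exact h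
  have hb2 : 2 ≤ b := by
    rcases Nat.lt_or_ge b 2 with h | h
    · interval_cases b <;> omega
    · exact h
  obtain ⟨d, O, hi, hf, hdisc, C, hsmall⟩ := exists_orders a b ha2 hb2
  refine ⟨d, O, hi, hf, hdisc, fun m hm => ?_⟩
  obtain ⟨h1, -, f, hfc, hfs, hfpos, -, hf0⟩ :=
    counterexample_conclusion (fun i => d.withOrder (O i) (hi i) (hf i)) C hsmall m hm
  exact ⟨h1, f, hfc, hfs, hfpos, hf0⟩

end Vale.Agent.Results.P007.A1_FixedFieldOrders
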