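import Vale.Agent.P007.Conclusion
import Vale.Agent.P007.Subfield

open MeasureTheory Filter Topology

namespace Vale.Agent.Results.P007.A2_EveryFieldWithSubfield

open Vale.Agent.P007

theorem result (n : ℕ) (d : Datum n) (a : d.K) (ha : ∀ r : ℚ, a ≠ r) (i j : Fin n) (hij : i ≠ j)
    (h : d.sigma i a = d.sigma j a) :
    ∃ (O : ℕ → Subring d.K) (hi : ∀ k, ∀ x ∈ O k, IsIntegral ℤ x)
      (hf : ∀ k, Submodule.span ℚ (O k : Set d.K) = ⊤),
      Tendsto (fun k => (d.withOrder (O k) (hi k) (hf k)).absDisc) atTop atTop ∧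
      ∀ m : Measure (X n), IsInvariantProbability m →
        (∀ φ : ℕ → ℕ, ¬ WeaklyConverges
          (fun k => (d.withOrder (O (φ k)) (hi (φ k)) (hf (φ k))).packetMeasure) m) ∧
        ∃ f : X n → ℝ, Continuous f ∧ HasCompactSupport f ∧ 0 < ∫ x, f x ∂m ∧
          ∀ k, ∀ S ∈ (d.withOrder (O k) (hi k) (hf k)).packet, ∀ x ∈ S, f x = 0 := by
  obtain ⟨O, hi, hf, hdisc, C, hsmall⟩ := exists_orders_of_datum d a ha i j hij h
  refine ⟨O, hi, hf, hdisc, fun m hm => ?_⟩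
  obtain ⟨h1, -, f, hfc, hfs, hfpos, -, hf0⟩ :=
    counterexample_conclusion (fun k => d.withOrder (O k) (hi k) (hf k)) C hsmall m hm
  exact ⟨h1, f, hfc, hfs, hfpos, hf0⟩

end Vale.Agent.Results.P007.A2_EveryFieldWithSubfield
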