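import Vale.Agent.P007.Necessary

open MeasureTheory Filter Topology

namespace Vale.Agent.Results.P007.NecessaryCondition

open Vale.Agent.P007

theorem result (n : ℕ) (d : ℕ → Datum n) (m : Measure (X n)) (hm : IsInvariantProbability m)
    (hconv : WeaklyConverges (fun i => (d i).packetMeasure) m) (C : ℝ) :
    ∀ᶠ i in atTop, ∀ a ∈ (d i).O, (∀ k : ℤ, a ≠ k) → ∃ j, C < |(d i).sigma j a| := by
  by_contra hcon
  rw [not_eventually] at hcon
  refine not_weaklyConverges d C (hcon.mono fun i hi => ?_) hm hconv
  push Not at hi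
  exact hi

end Vale.Agent.Results.P007.NecessaryCondition
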