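import Vale.Agent.P007.Necessary
import Vale.Agent.P007.Quartic

open MeasureTheory Filter Topology

namespace Vale.Agent.Results.P007.QuarticCounterexample

open Vale.Agent.P007

theorem result :
    ∃ d : ℕ → Datum 4,
      (∀ i, ∀ x : (d i).K, x ∈ (d i).O ↔ IsIntegral ℤ x) ∧
      Tendsto (fun i => (d i).absDisc) atTop atTop ∧
      ∀ m : Measure (X 4), IsInvariantProbability m →
        ¬ WeaklyConverges (fun i => (d i).packetMeasure) m ∧
        ∃ f : X 4 → ℝ, Continuous f ∧ HasCompactSupport f ∧ 0 < ∫ x, f x ∂m ∧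
          (∀ i, ∫ x, f x ∂(d i).packetMeasure = 0) ∧
          ∀ i, ∀ S ∈ (d i).packet, ∀ x ∈ S, f x = 0 := by
  refine ⟨quarticSeq, fun i x => Iff.rfl, quarticSeq_tendsto, fun m hm => ⟨?_, ?_⟩⟩
  · exact not_weaklyConverges quarticSeq 2 (Frequently.of_forall quarticSeq_small) hm
  · obtain ⟨f, hfc, hfs, hf0, hfpos⟩ := exists_test_function 2 hm
    refine ⟨f, hfc, hfs, hfpos, fun i => ?_, fun i S hS x hx => ?_⟩
    · obtain ⟨a, ha, haZ, hC⟩ := quarticSeq_small i
      exact integral_packetMeasure_eq_zero (quarticSeq i) ha haZ hC hf0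
    · obtain ⟨a, ha, haZ, hC⟩ := quarticSeq_small i
      obtain ⟨g, rfl, hst⟩ := stable_of_mem_packet (quarticSeq i) ha hS hx
      refine hf0 _ (not_mem_avoid (dd := fun j => (quarticSeq i).sigma j a) hC (j := 0) ?_ hst)
      intro k hk
      apply haZ k
      apply ((quarticSeq i).sigma 0).injective
      rw [hk]
      simp

end Vale.Agent.Results.P007.QuarticCounterexample
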